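import Vale.Agent.H47.Findim.Final
import Vale.Agent.H47.Findim.HLM
import Vale.Agent.H47.Findim.CornerMain

/-!
# P176: four classes of left artinian rings with finite finitistic dimension, in one statement

Let `A` be a left artinian ring (for instance an Artin algebra). The little finitistic dimension
of `A` is finite, i.e. there is `d` with `pd M ≤ d` for every finitely generated left `A`-module
`M` of finite projective dimension, in each of the following cases.

1. `I * J * rad(A) = 0` for two-sided ideals `I`, `J` with `A ⧸ I` and `A ⧸ J`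
   representation-finite.
2. All radical layers `rad(A)^i / rad(A)^(i+1)` have finite projective dimension, except for at
   most three values of `i`.
3. For some `n` and some finitely generated module `V`, every finitely generated module `M` of
   finite projective dimension has an `n`-th syzygy `K` fitting into a short exact sequence
   `0 → V₁ → V₀ → K → 0` with `V₀`, `V₁` in `add V`.

Moreover:

4. If `n ≤ 2` and every finitely generated `A`-module has an `n`-th syzygy as in 3, then for
   every idempotent `e` of `A` the corner ring `e A e` has finite finitistic dimension.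

This is the conjunction of the four statements proved separately in this folder
(`A_XiTwoIdeals`, `C_ThreeRadicalLayers`, `B_IgusaTodorovAlgebra`, `D_CornerOfIgusaTodorov`).
-/

namespace Vale.Agent.Results.P176.A0_FourClasses

open CategoryTheory Vale.Agent.H47.Findim

universe u

theorem result {A : Type u} [Ring A] [IsArtinianRing A] :
    (∀ (I J : Ideal A) [I.IsTwoSided] [J.IsTwoSided], I * J * Ring.jacobson A = ⊥ →
      (∃ (n : ℕ) (V : Fin n → ModuleCat.{u} (A ⧸ I)), ∀ M : ModuleCat.{u} (A ⧸ I),
        Module.Finite (A ⧸ I) M → Indecomposable M → ∃ i, Nonempty (M ≅ V i)) →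
      (∃ (n : ℕ) (V : Fin n → ModuleCat.{u} (A ⧸ J)), ∀ M : ModuleCat.{u} (A ⧸ J),
        Module.Finite (A ⧸ J) M → Indecomposable M → ∃ i, Nonempty (M ≅ V i)) →
      ∃ d : ℕ, ∀ M : ModuleCat.{u} A, Module.Finite A M → projectiveDimension M ≠ ⊤ →
        projectiveDimension M ≤ d) ∧
    ((∃ s : Finset ℕ, s.card ≤ 3 ∧ ∀ i : ℕ, i ∉ s →
        projectiveDimension (ModuleCat.of A
          (↥(Ring.jacobson A ^ i) ⧸
            (Ring.jacobson A ^ (i + 1)).submoduleOf (Ring.jacobson A ^ i))) ≠ ⊤) →
      ∃ d : ℕ, ∀ M : ModuleCat.{u} A, Module.Finite A M → projectiveDimension M ≠ ⊤ →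
        projectiveDimension M ≤ d) ∧
    (∀ (n : ℕ) (V : ModuleCat.{u} A), Module.Finite A V →
      (∀ M : ModuleCat.{u} A, Module.Finite A M → projectiveDimension M ≠ ⊤ →
        ∃ S : ShortComplex (ModuleCat.{u} A), S.ShortExact ∧ InAdd V S.X₁ ∧ InAdd V S.X₂ ∧
          IsSyzygy n M S.X₃) →
      ∃ d : ℕ, ∀ M : ModuleCat.{u} A, Module.Finite A M → projectiveDimension M ≠ ⊤ →
        projectiveDimension M ≤ d) ∧
    (∀ (e : A) (he : IsIdempotentElem e) (n : ℕ), n ≤ 2 → ∀ V : ModuleCat.{u} A,
      Module.Finite A V →
      (∀ X : ModuleCat.{u} A, Module.Finite A X →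
        ∃ S : ShortComplex (ModuleCat.{u} A), S.ShortExact ∧ InAdd V S.X₁ ∧ InAdd V S.X₂ ∧
          IsSyzygy n X S.X₃) →
      ∃ d : ℕ, ∀ M : ModuleCat.{u} he.Corner, Module.Finite he.Corner M →
        projectiveDimension M ≠ ⊤ → projectiveDimension M ≤ d) :=
  ⟨fun I J _ _ hIJ hI hJ => xi_final I J hIJ hI hJ,
    fun h => hlm_final h,
    fun n V hV h => wei_final n V hV h,
    fun _ he n hn V hV h => corner_findim he n hn V hV h⟩

end Vale.Agent.Results.P176.A0_FourClasses
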