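import Vale.Agent.H47.Findim.Final

/-!
# P176: finitistic dimension for rings with two ideals `I`, `J` such that `I J rad(A) = 0`

Let `A` be a left artinian ring (for instance an Artin algebra or a finite-dimensional algebra
over a field) and let `I`, `J` be two-sided ideals with `I * J * rad(A) = 0`, where `rad(A)` is the
Jacobson radical. If `A ⧸ I` and `A ⧸ J` are representation-finite (each has only finitely many
isomorphism classes of finitely generated indecomposable modules), then the little finitistic
dimension of `A` is finite: there is `d` with `pd M ≤ d` for every finitely generated left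
`A`-module `M` of finite projective dimension.

The proof runs the Igusa-Todorov argument without the Krull-Schmidt uniqueness theorem: for the
first syzygy `K` of `M` in a minimal projective presentation, `J K` is an `A ⧸ I`-module and
`K ⧸ J K` is an `A ⧸ J`-module, so `K` is the cokernel of an injection between finite direct sums
of members of a fixed finite family of modules, and such cokernels of finite projective dimension
have bounded projective dimension.
-/

namespace Vale.Agent.Results.P176.A_XiTwoIdeals

open CategoryTheory

universe u

theorem result {A : Type u} [Ring A] [IsArtinianRing A] (I J : Ideal A) [I.IsTwoSided]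
    [J.IsTwoSided] (hIJ : I * J * Ring.jacobson A = ⊥)
    (hI : ∃ (n : ℕ) (V : Fin n → ModuleCat.{u} (A ⧸ I)), ∀ M : ModuleCat.{u} (A ⧸ I),
      Module.Finite (A ⧸ I) M → Indecomposable M → ∃ i, Nonempty (M ≅ V i))
    (hJ : ∃ (n : ℕ) (V : Fin n → ModuleCat.{u} (A ⧸ J)), ∀ M : ModuleCat.{u} (A ⧸ J),
      Module.Finite (A ⧸ J) M → Indecomposable M → ∃ i, Nonempty (M ≅ V i)) :
    ∃ d : ℕ, ∀ M : ModuleCat.{u} A, Module.Finite A M → projectiveDimension M ≠ ⊤ →
      projectiveDimension M ≤ d :=
  Vale.Agent.H47.Findim.xi_final I J hIJ hI hJ

end Vale.Agent.Results.P176.A_XiTwoIdeals
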