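import Vale.Agent.H47.Findim.Final

/-!
# P176: Igusa-Todorov algebras have finite finitistic dimension

Let `A` be a left artinian ring, `n` a natural number and `V` a finitely generated `A`-module.
Suppose every finitely generated `A`-module `M` of finite projective dimension has an `n`-th
syzygy `K` (with respect to some resolution by finitely generated projectives) which fits into a
short exact sequence `0 → V₁ → V₀ → K → 0` with `V₀`, `V₁` in `add V`. Then the little finitistic
dimension of `A` is finite.

If the sequences exist for all finitely generated modules, `A` is called an `n`-Igusa-Todorov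
algebra; the case `n = 0` contains the algebras of representation dimension at most three.
-/

namespace Vale.Agent.Results.P176.B_IgusaTodorovAlgebra

open CategoryTheory Vale.Agent.H47.Findim

universe u

theorem result {A : Type u} [Ring A] [IsArtinianRing A] (n : ℕ) (V : ModuleCat.{u} A)
    (hV : Module.Finite A V)
    (h : ∀ M : ModuleCat.{u} A, Module.Finite A M → projectiveDimension M ≠ ⊤ →
      ∃ S : ShortComplex (ModuleCat.{u} A), S.ShortExact ∧ InAdd V S.X₁ ∧ InAdd V S.X₂ ∧
        IsSyzygy n M S.X₃) :
    ∃ d : ℕ, ∀ M : ModuleCat.{u} A, Module.Finite A M → projectiveDimension M ≠ ⊤ →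
      projectiveDimension M ≤ d :=
  wei_final n V hV h

end Vale.Agent.Results.P176.B_IgusaTodorovAlgebra
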