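import Vale.Agent.H47.Findim.HLM

/-!
# P176: at most three radical layers of infinite projective dimension

Let `A` be a left artinian ring (for instance an Artin algebra or a finite-dimensional algebra
over a field) with Jacobson radical `J`. The radical layers of `A` are the left `A`-modules
`J^i / J^(i+1)`, `i = 0, 1, 2, …`. If all of them, except at most three, have finite projective
dimension, then the little finitistic dimension of `A` is finite: there is `d` with `pd M ≤ d`
for every finitely generated left `A`-module `M` of finite projective dimension.

For `J^3 = 0` there are at most three nonzero layers, so this contains the case of radical cube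
zero. The proof: if `A / J` has finite projective dimension the global dimension is finite.
Otherwise, for the first syzygy `K ≤ J P` of `M` in a minimal projective presentation, the
filtration `K ∩ J^i P` has semisimple layers which are direct summands of powers of
`J^i / J^(i+1)`, so all but at most two of them have projective dimension at most a constant `α`;
after taking `α`-th syzygies the module becomes an extension of two modules taken from a fixed
finite family up to projective summands, and the Igusa-Todorov argument bounds its projective
dimension.
-/

namespace Vale.Agent.Results.P176.C_ThreeRadicalLayers

open CategoryTheory

universe u

theorem result {A : Type u} [Ring A] [IsArtinianRing A]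
    (h : ∃ s : Finset ℕ, s.card ≤ 3 ∧ ∀ i : ℕ, i ∉ s →
      projectiveDimension (ModuleCat.of A
        (↥(Ring.jacobson A ^ i) ⧸
          (Ring.jacobson A ^ (i + 1)).submoduleOf (Ring.jacobson A ^ i))) ≠ ⊤) :
    ∃ d : ℕ, ∀ M : ModuleCat.{u} A, Module.Finite A M → projectiveDimension M ≠ ⊤ →
      projectiveDimension M ≤ d :=
  Vale.Agent.H47.Findim.hlm_final h

end Vale.Agent.Results.P176.C_ThreeRadicalLayers
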