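import Vale.Agent.H47.Findim.CornerMain

/-!
# P176: corner rings `e A e` of Igusa-Todorov algebras

Let `A` be a left artinian ring, `n ≤ 2` and `V` a finitely generated `A`-module such that every
finitely generated `A`-module `X` has an `n`-th syzygy `K` fitting into a short exact sequence
`0 → V₁ → V₀ → K → 0` with `V₀`, `V₁` direct summands of finite direct sums of copies of `V`
(that is, `A` is an `n`-Igusa-Todorov algebra). Then for every idempotent `e` of `A` the corner
ring `e A e` has finite finitistic dimension: there is `d` with `pd M ≤ d` for every finitely
generated left `e A e`-module `M` of finite projective dimension.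

The proof: a finitely generated `e A e`-module `M` is `e X` for a finitely generated `A`-module
`X` presented by projective modules in `add (A e)`; for `n ≤ 2` the `n`-th syzygy of `X` with
respect to this presentation goes to an `n`-th syzygy of `M` under the exact functor `X ↦ e X`.
Schanuel's lemma moves the given sequence to this syzygy, the functor carries it to a sequence
over `e A e` whose outer terms are direct summands of powers of `e (V ⊕ A)`, and the
Igusa-Todorov argument over `e A e` gives the bound.
-/

namespace Vale.Agent.Results.P176.D_CornerOfIgusaTodorov

open CategoryTheory Vale.Agent.H47.Findim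

universe u

theorem result {A : Type u} [Ring A] [IsArtinianRing A] {e : A} (he : IsIdempotentElem e)
    (n : ℕ) (hn : n ≤ 2) (V : ModuleCat.{u} A) (hV : Module.Finite A V)
    (h : ∀ X : ModuleCat.{u} A, Module.Finite A X →
      ∃ S : ShortComplex (ModuleCat.{u} A), S.ShortExact ∧ InAdd V S.X₁ ∧ InAdd V S.X₂ ∧
        IsSyzygy n X S.X₃) :
    ∃ d : ℕ, ∀ M : ModuleCat.{u} he.Corner, Module.Finite he.Corner M →
      projectiveDimension M ≠ ⊤ → projectiveDimension M ≤ d :=
  corner_findim he n hn V hV h

end Vale.Agent.Results.P176.D_CornerOfIgusaTodorov
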